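import Crest.Agent.Lib.SnakyCert.Tab.Whole
namespace Crest.Agent.SnakyCert
theorem c14 : checkAll whole t14 = true := by decide +kernel
end Crest.Agent.SnakyCert
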