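import Crest.Agent.Lib.SnakyCert.Tab.C00
import Crest.Agent.Lib.SnakyCert.Tab.C01
import Crest.Agent.Lib.SnakyCert.Tab.C02
import Crest.Agent.Lib.SnakyCert.Tab.C03
import Crest.Agent.Lib.SnakyCert.Tab.C04
import Crest.Agent.Lib.SnakyCert.Tab.C05
import Crest.Agent.Lib.SnakyCert.Tab.C06
import Crest.Agent.Lib.SnakyCert.Tab.C07
import Crest.Agent.Lib.SnakyCert.Tab.C08
import Crest.Agent.Lib.SnakyCert.Tab.C09
import Crest.Agent.Lib.SnakyCert.Tab.C10
import Crest.Agent.Lib.SnakyCert.Tab.C11
import Crest.Agent.Lib.SnakyCert.Tab.C12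
import Crest.Agent.Lib.SnakyCert.Tab.C13
import Crest.Agent.Lib.SnakyCert.Tab.C14
import Crest.Agent.Lib.SnakyCert.Tab.C15
import Crest.Agent.Lib.SnakyCert.Tab.C16
import Crest.Agent.Lib.SnakyCert.Tab.C17
import Crest.Agent.Lib.SnakyCert.Tab.C18
import Crest.Agent.Lib.SnakyCert.Tab.C19
import Crest.Agent.Lib.SnakyCert.Tab.C20
import Crest.Agent.Lib.SnakyCert.Tab.C21
import Crest.Agent.Lib.SnakyCert.Tab.C22
import Crest.Agent.Lib.SnakyCert.Tab.C23
import Crest.Agent.Lib.SnakyCert.Tab.C24
import Crest.Agent.Lib.SnakyCert.Tab.C25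
import Crest.Agent.Lib.SnakyCert.Tab.C26
import Crest.Agent.Lib.SnakyCert.Tab.C27
import Crest.Agent.Lib.SnakyCert.Tab.C28
import Crest.Agent.Lib.SnakyCert.Tab.C29
import Crest.Agent.Lib.SnakyCert.Tab.C30
import Crest.Agent.Lib.SnakyCert.Tab.C31
import Crest.Agent.Lib.SnakyCert.Root
namespace Crest.Agent.SnakyCert
theorem checkAll_node {w a b : Trie} (ha : checkAll w a = true) (hb : checkAll w b = true) :
    checkAll w (Trie.node a b) = true := by
  simp [checkAll, ha, hb]
theorem whole_ok : checkAll whole whole = true := (checkAll_node (checkAll_node (checkAll_node (checkAll_node (checkAll_node c00 c16) (checkAll_node c08 c24)) (checkAll_node (checkAll_node c04 c20) (checkAll_node c12 c28))) (checkAll_node (checkAll_node (checkAll_node c02 c18) (checkAll_node c10 c26)) (checkAll_node (checkAll_node c06 c22) (checkAll_node c14 c30)))) (checkAll_node (checkAll_node (checkAll_node (checkAll_node c01 c17) (checkAll_node c09 c25)) (checkAll_node (checkAll_node c05 c21) (checkAll_node c13 c29))) (checkAll_node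 (checkAll_node (checkAll_node c03 c19) (checkAll_node c11 c27)) (checkAll_node (checkAll_node c07 c23) (checkAll_node c15 c31)))))
def rootKids : List (ℕ × ℕ) := [(24880, 4), (24880, 5), (24880, 6), (24880, 7), (34416, 2), (34416, 3), (34416, 5), (34416, 7), (39273, 0), (39273, 1), (39273, 2), (39273, 3), (39273, 4), (39273, 5), (39273, 6), (39273, 7), (46415, 2), (46415, 3), (46415, 5), (46415, 7), (49974, 4), (49974, 5), (49974, 6), (49974, 7), (52916, 0), (52916, 1), (52916, 2), (52916, 3), (52916, 4), (52916, 5), (52916, 6), (52916, 7), (54177, 0), (54177, 1), (54177, 2), (54177, 3), (54177, 4), (54177, 5), (54177, 6), (54177, 7), (54435, 4), (54435, 5), (54435, 6), (54435, 7), (60059, 0), (60059, 1), (60059, 2), (60059, 3), (60059, 4), (60059, 5), (60059, 6), (60059, 7), (156102, 2), (156102, 3), (156102, 5), (156102, 7)]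
theorem root_ok : rootChk whole rootKids = true := by decide +kernel
end Crest.Agent.SnakyCert
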