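import Crest.Agent.Lib.SnakyCert.Tab.T00
import Crest.Agent.Lib.SnakyCert.Tab.T01
import Crest.Agent.Lib.SnakyCert.Tab.T02
import Crest.Agent.Lib.SnakyCert.Tab.T03
import Crest.Agent.Lib.SnakyCert.Tab.T04
import Crest.Agent.Lib.SnakyCert.Tab.T05
import Crest.Agent.Lib.SnakyCert.Tab.T06
import Crest.Agent.Lib.SnakyCert.Tab.T07
import Crest.Agent.Lib.SnakyCert.Tab.T08
import Crest.Agent.Lib.SnakyCert.Tab.T09
import Crest.Agent.Lib.SnakyCert.Tab.T10
import Crest.Agent.Lib.SnakyCert.Tab.T11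
import Crest.Agent.Lib.SnakyCert.Tab.T12
import Crest.Agent.Lib.SnakyCert.Tab.T13
import Crest.Agent.Lib.SnakyCert.Tab.T14
import Crest.Agent.Lib.SnakyCert.Tab.T15
import Crest.Agent.Lib.SnakyCert.Tab.T16
import Crest.Agent.Lib.SnakyCert.Tab.T17
import Crest.Agent.Lib.SnakyCert.Tab.T18
import Crest.Agent.Lib.SnakyCert.Tab.T19
import Crest.Agent.Lib.SnakyCert.Tab.T20
import Crest.Agent.Lib.SnakyCert.Tab.T21
import Crest.Agent.Lib.SnakyCert.Tab.T22
import Crest.Agent.Lib.SnakyCert.Tab.T23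
import Crest.Agent.Lib.SnakyCert.Tab.T24
import Crest.Agent.Lib.SnakyCert.Tab.T25
import Crest.Agent.Lib.SnakyCert.Tab.T26
import Crest.Agent.Lib.SnakyCert.Tab.T27
import Crest.Agent.Lib.SnakyCert.Tab.T28
import Crest.Agent.Lib.SnakyCert.Tab.T29
import Crest.Agent.Lib.SnakyCert.Tab.T30
import Crest.Agent.Lib.SnakyCert.Tab.T31
namespace Crest.Agent.SnakyCert
set_option maxRecDepth 100000 in
noncomputable def whole : Trie := (Trie.node (Trie.node (Trie.node (Trie.node (Trie.node t00 t16) (Trie.node t08 t24)) (Trie.node (Trie.node t04 t20) (Trie.node t12 t28))) (Trie.node (Trie.node (Trie.node t02 t18) (Trie.node t10 t26)) (Trie.node (Trie.node t06 t22) (Trie.node t14 t30)))) (Trie.node (Trie.node (Trie.node (Trie.node t01 t17) (Trie.node t09 t25)) (Trie.node (Trie.node t05 t21) (Trie.node t13 t29))) (Trie.node (Trie.node (Trie.node t03 t19) (Trie.node t11 t27)) (Trie.node (Trie.node t07 t23) (Trie.node t15 t31)))))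
end Crest.Agent.SnakyCert
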